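import Vale.Agent.Lib.P161.Final

/-!
Problem P161: the free Ising measure on the `d`-regular tree is a factor of i.i.d. in the whole
range `tanh β < (d - 1)^{-1/2}`, for every `d ≥ 3`.
-/

open MeasureTheory Vale.Agent.P161

namespace Vale.Agent.Results.P161.SubcriticalFIID

/-- For every `d ≥ 3`, every `d`-regular tree `G` and every `β ≥ 0` with
`tanh β < (d - 1)^{-1/2}`, there is exactly one measure with the cylinder probabilities of the
free Ising measure, and this measure is a factor of i.i.d. uniform labels. -/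
theorem result {d : ℕ} (hd : 3 ≤ d) {V : Type*} (G : SimpleGraph V) [G.LocallyFinite]
    (hG : G.IsTree) (hreg : G.IsRegularOfDegree d) {β : ℝ} (hβ : 0 ≤ β)
    (hlt : Real.tanh β < 1 / √((d : ℝ) - 1)) :
    (∃! ν : Measure (V → ℤˣ), IsFreeIsing G β ν) ∧
      ∀ ν : Measure (V → ℤˣ), IsFreeIsing G β ν → IsFactorOfIID G ν :=
  free_ising_factor hG hd hreg hβ hlt

end Vale.Agent.Results.P161.SubcriticalFIID
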